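import Vale.Agent.P207.H9.SantM

/-!
# P207, line N4, step 9: the hyperbolic cross ratio in `ℝ^m` and the bound of the visual measure

All data are written in a chart `Eu m` of the boundary minus one point `ξ₀`.
* `D ξ z`: signed distance of the horospheres at `ξ`, `z` through one point `p`; `D0 z` the same
  for `ξ₀`, `z`;
* `A ξ / |z - ξ|^(2m)`: density of the Margulis area of the horosphere at `ξ` through `p`; `A0` the
  density for `ξ₀`.
-/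

open MeasureTheory Set Filter Topology
open scoped ENNReal NNReal RealInnerProductSpace

noncomputable section

namespace Vale.Agent.P207.H9.CrossM

open Vale.Agent.P207.H9.SantM (Eu sant_self sph sph_pos)

section Cross

variable {m : ℕ} {h : ℝ} {D : Eu m → Eu m → ℝ} {D0 A : Eu m → ℝ} {A0 : ℝ}

/-- the relation of the areas in logarithmic form -/
theorem hD_eq (hA0 : 0 < A0) (hA : ∀ ξ, 0 < A ξ)
    (hb : ∀ ξ z, ξ ≠ z → A ξ / ‖z - ξ‖ ^ (2 * m) = Real.exp (h * (D0 z - D ξ z)) * A0)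
    {ξ z : Eu m} (hne : ξ ≠ z) :
    h * D ξ z = h * D0 z + Real.log A0 - Real.log (A ξ) + 2 * m * Real.log ‖z - ξ‖ := by
  have hn : 0 < ‖z - ξ‖ := norm_pos_iff.2 (sub_ne_zero.2 hne.symm)
  have h1 := congrArg Real.log (hb ξ z hne)
  rw [Real.log_mul (Real.exp_pos _).ne' hA0.ne', Real.log_exp,
    Real.log_div (hA ξ).ne' (by positivity), Real.log_pow] at h1
  push_cast at h1
  linarith

/-- the constant of the cross ratio -/
theorem kap (hA0 : 0 < A0) (hA : ∀ ξ, 0 < A ξ) (hsym : ∀ ξ z, ξ ≠ z → D ξ z = D z ξ)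
    (hb : ∀ ξ z, ξ ≠ z → A ξ / ‖z - ξ‖ ^ (2 * m) = Real.exp (h * (D0 z - D ξ z)) * A0)
    (ξ z : Eu m) : h * D0 z + Real.log (A z) = h * D0 ξ + Real.log (A ξ) := by
  rcases eq_or_ne ξ z with rfl | hne
  · rfl
  have h1 := hD_eq hA0 hA hb hne
  have h2 := hD_eq hA0 hA hb hne.symm
  rw [hsym ξ z hne, h2, norm_sub_rev] at h1
  linarith

/-- **the bound of the visual measure** -/
theorem cross_bound [NeZero m] (hA0 : 0 < A0) (hA : ∀ ξ, 0 < A ξ) (hmeas : Measurable D0)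
    (hsym : ∀ ξ z, ξ ≠ z → D ξ z = D z ξ) (h0 : 0 < h) (hneg : ∀ ξ z, ξ ≠ z → D ξ z ≤ 0)
    (hb : ∀ ξ z, ξ ≠ z → A ξ / ‖z - ξ‖ ^ (2 * m) = Real.exp (h * (D0 z - D ξ z)) * A0)
    {c : ℝ} (hc : 0 < c) {ξ₁ η₁ : Eu m} (hne : ξ₁ ≠ η₁) (hD : D ξ₁ η₁ = 0)
    (hcal : A ξ₁ * A η₁ / ‖η₁ - ξ₁‖ ^ (2 * m) = c ^ 2) :
    ∫⁻ z : Eu m, ENNReal.ofReal (Real.exp (h * D0 z) * A0) ≤ ENNReal.ofReal (c * sph m) := by
  have hm0 : (0 : ℝ) < m := by exact_mod_cast Nat.pos_of_ne_zero (NeZero.ne m)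
  have hn1 : 0 < ‖η₁ - ξ₁‖ := norm_pos_iff.2 (sub_ne_zero.2 hne.symm)
  -- the constant `K₀`
  set K₀ : ℝ := h * D0 0 + Real.log (A 0) + Real.log A0 with hK
  have hkap : ∀ z, h * D0 z = K₀ - Real.log (A z) - Real.log A0 := by
    intro z
    have := kap hA0 hA hsym hb 0 z
    rw [hK]
    linarith
  have hDD : ∀ ξ z, ξ ≠ z → h * D ξ z = K₀ - Real.log (A z) - Real.log (A ξ) +
      2 * m * Real.log ‖z - ξ‖ := by
    intro ξ z hz
    rw [hD_eq hA0 hA hb hz, hkap]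
    ring
  have hK2 : K₀ = 2 * Real.log c := by
    have h1 := hDD _ _ hne
    rw [hD, mul_zero] at h1
    have h2 := congrArg Real.log hcal
    rw [Real.log_div (mul_pos (hA _) (hA _)).ne' (by positivity),
      Real.log_mul (hA _).ne' (hA _).ne', Real.log_pow, Real.log_pow] at h2
    push_cast at h2
    linarith
  -- the function `1 / d`
  set φ : Eu m → ℝ := fun z => Real.exp ((h * D0 z + Real.log A0 - Real.log c) / m) with hφ
  have hφ2 : ∀ z, φ z ^ m * c = Real.exp (h * D0 z) * A0 := by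
    intro z
    rw [hφ]
    simp only
    rw [← Real.exp_nat_mul]
    have e1 : (m : ℝ) * ((h * D0 z + Real.log A0 - Real.log c) / m) =
        h * D0 z + Real.log A0 - Real.log c := by field_simp
    rw [e1, Real.exp_sub, Real.exp_add, Real.exp_log hA0, Real.exp_log hc]
    field_simp
  have hmφ : Measurable φ :=
    Real.measurable_exp.comp ((((hmeas.const_mul h).add_const _).sub_const _).div_const m)
  have hφlog : ∀ z, Real.log (φ z) = (Real.log c - Real.log (A z)) / m := by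
    intro z
    rw [hφ]
    simp only
    rw [Real.log_exp, hkap, hK2]
    ring
  have key := sant_self (φ := φ) (fun z => (Real.exp_pos _).le) hmφ (by
    intro x y
    rcases eq_or_ne x y with rfl | hxy
    · simp
    have hn : 0 < ‖x - y‖ := norm_pos_iff.2 (sub_ne_zero.2 hxy)
    have h1 : h * D x y ≤ 0 := mul_nonpos_of_nonneg_of_nonpos h0.le (hneg x y hxy)
    rw [hDD x y hxy, hK2, norm_sub_rev] at h1
    have p1 : 0 < φ x := Real.exp_pos _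
    have p2 : 0 < φ y := Real.exp_pos _
    have hpos : 0 < φ x * φ y * ‖x - y‖ ^ 2 := by positivity
    rw [← Real.log_nonpos_iff hpos.le, Real.log_mul (by positivity) (by positivity),
      Real.log_mul p1.ne' p2.ne', hφlog, hφlog, Real.log_pow]
    push_cast
    have e1 : (Real.log c - Real.log (A x)) / m + (Real.log c - Real.log (A y)) / m +
        2 * Real.log ‖x - y‖ = (2 * Real.log c - Real.log (A y) - Real.log (A x) +
        2 * m * Real.log ‖x - y‖) / m := by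
      field_simp
      ring
    rw [e1]
    exact div_nonpos_of_nonpos_of_nonneg h1 hm0.le)
  have h3 : ∫⁻ z : Eu m, ENNReal.ofReal (Real.exp (h * D0 z) * A0) =
      ENNReal.ofReal c * ∫⁻ z : Eu m, ENNReal.ofReal (φ z ^ m) := by
    have m2 : Measurable fun z => ENNReal.ofReal (φ z ^ m) :=
      ENNReal.measurable_ofReal.comp (hmφ.pow_const m)
    rw [← lintegral_const_mul _ m2]
    refine lintegral_congr fun z => ?_
    rw [← hφ2, ← ENNReal.ofReal_mul hc.le, mul_comm]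
  rw [h3, ENNReal.ofReal_mul hc.le]
  exact mul_le_mul_right key _

end Cross

/-! ## the calibration -/

section Cal

/-- the mixed second derivative of `log |ξ - η|`, `u = ξ - η` -/
def mixc {V : Type*} [NormedAddCommGroup V] [InnerProductSpace ℝ V] (u δ ε : V) : ℝ :=
  (2 * ⟪u, δ⟫ * ⟪u, ε⟫ - ‖u‖ ^ 2 * ⟪δ, ε⟫) / ‖u‖ ^ 4

/-- the second difference of `log |ξ - η|` -/
theorem log_diff {V : Type*} [NormedAddCommGroup V] [InnerProductSpace ℝ V] {a b : ℝ → V}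
    {ξ η δ ε : V} (hne : ξ ≠ η) (ha : HasDerivAt a δ 0)
    (hb : HasDerivAt b ε 0) (ha0 : a 0 = ξ) (hb0 : b 0 = η) :
    Tendsto (fun s : ℝ => (Real.log ‖a s - b s‖ + Real.log ‖ξ - η‖ - Real.log ‖ξ - b s‖ -
      Real.log ‖a s - η‖) / s ^ 2) (𝓝[>] 0) (𝓝 (mixc (ξ - η) δ ε)) := by
  set u := ξ - η with hu
  have hu0 : u ≠ 0 := sub_ne_zero.2 hne
  have hun : 0 < ‖u‖ := norm_pos_iff.2 hu0
  -- difference quotients
  have qa : Tendsto (fun s : ℝ => s⁻¹ • (a s - ξ)) (𝓝[>] 0) (𝓝 δ) := by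
    have h1 := ha.tendsto_slope_zero_right
    rw [ha0] at h1
    refine h1.congr' ?_
    filter_upwards with s
    rw [zero_add]
  have qb : Tendsto (fun s : ℝ => s⁻¹ • (b s - η)) (𝓝[>] 0) (𝓝 ε) := by
    have h1 := hb.tendsto_slope_zero_right
    rw [hb0] at h1
    refine h1.congr' ?_
    filter_upwards with s
    rw [zero_add]
  have ta : Tendsto a (𝓝[>] 0) (𝓝 ξ) := by
    have := ha.continuousAt.tendsto.mono_left (nhdsWithin_le_nhds (s := Ioi 0))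
    rwa [ha0] at this
  have tb : Tendsto b (𝓝[>] 0) (𝓝 η) := by
    have := hb.continuousAt.tendsto.mono_left (nhdsWithin_le_nhds (s := Ioi 0))
    rwa [hb0] at this
  have tp : Tendsto (fun s => a s - ξ) (𝓝[>] 0) (𝓝 0) := by
    have := ta.sub_const ξ
    rwa [sub_self] at this
  have tq : Tendsto (fun s => b s - η) (𝓝[>] 0) (𝓝 0) := by
    have := tb.sub_const η
    rwa [sub_self] at this
  -- the numerator
  set nu : ℝ → ℝ := fun s => -(2 * ‖u‖ ^ 2 * ⟪a s - ξ, b s - η⟫) +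
      4 * (⟪u, a s - ξ⟫ * ⟪u, b s - η⟫) - ‖a s - ξ‖ ^ 2 * ‖b s - η‖ ^ 2 -
      2 * (‖b s - η‖ ^ 2 * ⟪u, a s - ξ⟫) + 2 * (‖a s - ξ‖ ^ 2 * ⟪u, b s - η⟫) with hnu
  set de : ℝ → ℝ := fun s => ‖ξ - b s‖ ^ 2 * ‖a s - η‖ ^ 2 with hde
  have hid : ∀ s, ‖a s - b s‖ ^ 2 * ‖u‖ ^ 2 = de s + nu s := by
    intro s
    have e1 : a s - b s = u + (a s - ξ) - (b s - η) := by rw [hu]; abel
    have e2 : ξ - b s = u - (b s - η) := by rw [hu]; abel
    have e3 : a s - η = u + (a s - ξ) := by rw [hu]; abel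
    rw [hde, hnu]
    simp only
    rw [e1, e2, e3]
    generalize a s - ξ = p
    generalize b s - η = q
    rw [norm_sub_sq_real (u + p) q, norm_add_sq_real u p, norm_sub_sq_real u q, inner_add_left]
    ring
  have tde : Tendsto de (𝓝[>] 0) (𝓝 (‖u‖ ^ 2 * ‖u‖ ^ 2)) := by
    have h1 : Tendsto (fun s => ξ - b s) (𝓝[>] 0) (𝓝 u) := tendsto_const_nhds.sub tb
    have h2 : Tendsto (fun s => a s - η) (𝓝[>] 0) (𝓝 u) := ta.sub_const η
    exact (h1.norm.pow 2).mul (h2.norm.pow 2)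
  have tnu : Tendsto (fun s => nu s / s ^ 2) (𝓝[>] 0)
      (𝓝 (-(2 * ‖u‖ ^ 2 * ⟪δ, ε⟫) + 4 * (⟪u, δ⟫ * ⟪u, ε⟫))) := by
    have t1 : Tendsto (fun s : ℝ => -(2 * ‖u‖ ^ 2 * ⟪s⁻¹ • (a s - ξ), s⁻¹ • (b s - η)⟫) +
      4 * (⟪u, s⁻¹ • (a s - ξ)⟫ * ⟪u, s⁻¹ • (b s - η)⟫) -
      ‖a s - ξ‖ ^ 2 * ‖s⁻¹ • (b s - η)‖ ^ 2 -
      2 * (‖s⁻¹ • (b s - η)‖ ^ 2 * ⟪u, a s - ξ⟫) +
      2 * (‖s⁻¹ • (a s - ξ)‖ ^ 2 * ⟪u, b s - η⟫)) (𝓝[>] 0)
      (𝓝 (-(2 * ‖u‖ ^ 2 * ⟪δ, ε⟫) + 4 * (⟪u, δ⟫ * ⟪u, ε⟫) - ‖(0 : V)‖ ^ 2 * ‖ε‖ ^ 2 -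
      2 * (‖ε‖ ^ 2 * ⟪u, (0 : V)⟫) + 2 * (‖δ‖ ^ 2 * ⟪u, (0 : V)⟫))) := by
      have c1 := (qa.inner (𝕜 := ℝ) qb)
      have c2 := ((tendsto_const_nhds (x := u) (f := 𝓝[>] (0:ℝ))).inner (𝕜 := ℝ) qa)
      have c3 := ((tendsto_const_nhds (x := u) (f := 𝓝[>] (0:ℝ))).inner (𝕜 := ℝ) qb)
      have c4 := ((tendsto_const_nhds (x := u) (f := 𝓝[>] (0:ℝ))).inner (𝕜 := ℝ) tp)
      have c5 := ((tendsto_const_nhds (x := u) (f := 𝓝[>] (0:ℝ))).inner (𝕜 := ℝ) tq)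
      exact (((((c1.const_mul (2 * ‖u‖ ^ 2)).neg).add ((c2.mul c3).const_mul 4)).sub
        ((tp.norm.pow 2).mul (qb.norm.pow 2))).sub
        (((qb.norm.pow 2).mul c4).const_mul 2)).add (((qa.norm.pow 2).mul c5).const_mul 2)
    have e0 : -(2 * ‖u‖ ^ 2 * ⟪δ, ε⟫) + 4 * (⟪u, δ⟫ * ⟪u, ε⟫) - ‖(0 : V)‖ ^ 2 * ‖ε‖ ^ 2 -
      2 * (‖ε‖ ^ 2 * ⟪u, (0 : V)⟫) + 2 * (‖δ‖ ^ 2 * ⟪u, (0 : V)⟫) =
      -(2 * ‖u‖ ^ 2 * ⟪δ, ε⟫) + 4 * (⟪u, δ⟫ * ⟪u, ε⟫) := by
      simp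
    rw [e0] at t1
    refine t1.congr' ?_
    filter_upwards [self_mem_nhdsWithin] with s hs0
    have hs : s ≠ 0 := ne_of_gt hs0
    rw [hnu]
    simp only [inner_smul_left, inner_smul_right, norm_smul, norm_inv, mul_pow,
      RCLike.conj_to_real]
    have hs2 : ‖s‖⁻¹ ^ 2 = (s ^ 2)⁻¹ := by
      rw [Real.norm_eq_abs, inv_pow, sq_abs]
    rw [hs2]
    field_simp
  set w : ℝ → ℝ := fun s => nu s / de s with hw
  have tw : Tendsto (fun s : ℝ => w s / s ^ 2) (𝓝[>] 0)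
      (𝓝 ((-(2 * ‖u‖ ^ 2 * ⟪δ, ε⟫) + 4 * (⟪u, δ⟫ * ⟪u, ε⟫)) / (‖u‖ ^ 2 * ‖u‖ ^ 2))) := by
    refine (tnu.div tde (by positivity)).congr' ?_
    filter_upwards with s
    rw [hw]
    simp only [Pi.div_apply]
    rw [div_right_comm]
  have ts2 : Tendsto (fun s : ℝ => s ^ 2) (𝓝[>] 0) (𝓝 0) := by
    have h2 : Tendsto (fun s : ℝ => s ^ 2) (𝓝 0) (𝓝 ((0 : ℝ) ^ 2)) :=
      (continuous_pow 2).tendsto 0
    simp only [ne_eq, OfNat.ofNat_ne_zero, not_false_eq_true, zero_pow] at h2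
    exact h2.mono_left nhdsWithin_le_nhds
  have tw0 : Tendsto w (𝓝[>] 0) (𝓝 0) := by
    have h3 := tw.mul ts2
    rw [mul_zero] at h3
    refine h3.congr' ?_
    filter_upwards [self_mem_nhdsWithin] with s hs0
    have : s ≠ 0 := ne_of_gt hs0
    field_simp
  -- the logarithm
  have hlog : ∀ᶠ s in 𝓝[>] (0 : ℝ), Real.log ‖a s - b s‖ + Real.log ‖u‖ -
      Real.log ‖ξ - b s‖ - Real.log ‖a s - η‖ = Real.log (1 + w s) / 2 := by
    have e1 : ∀ᶠ s in 𝓝[>] (0 : ℝ), a s - η ≠ 0 := (ta.sub_const η).eventually_ne hu0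
    have e2 : ∀ᶠ s in 𝓝[>] (0 : ℝ), ξ - b s ≠ 0 := (tendsto_const_nhds.sub tb).eventually_ne hu0
    have e3 : ∀ᶠ s in 𝓝[>] (0 : ℝ), a s - b s ≠ 0 := (ta.sub tb).eventually_ne hu0
    filter_upwards [e1, e2, e3] with s h1 h2 h3
    have n1 : 0 < ‖a s - η‖ := norm_pos_iff.2 h1
    have n2 : 0 < ‖ξ - b s‖ := norm_pos_iff.2 h2
    have n3 : 0 < ‖a s - b s‖ := norm_pos_iff.2 h3
    have hdp : 0 < de s := by rw [hde]; positivity
    have e4 : 1 + w s = ‖a s - b s‖ ^ 2 * ‖u‖ ^ 2 / (‖ξ - b s‖ ^ 2 * ‖a s - η‖ ^ 2) := by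
      rw [hid s, hw]
      change 1 + nu s / de s = (de s + nu s) / de s
      rw [add_div (de s) (nu s) (de s), div_self hdp.ne']
    rw [e4, Real.log_div (by positivity) (by positivity), Real.log_mul (by positivity)
      (by positivity), Real.log_mul (by positivity) (by positivity), Real.log_pow, Real.log_pow,
      Real.log_pow, Real.log_pow]
    push_cast
    ring
  -- derivative of `log (1 + w)`
  have hd : HasDerivAt (fun z : ℝ => Real.log (1 + z)) 1 0 := by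
    have h1 : HasDerivAt Real.log 1 (1 + 0) := by
      have := Real.hasDerivAt_log (x := 1) one_ne_zero
      simpa using this
    simpa using h1.comp_const_add 1 0
  have hO := hd.isLittleO
  simp only [add_zero, Real.log_one, sub_zero, smul_eq_mul, mul_one] at hO
  have h5 : Tendsto (fun s : ℝ => (Real.log (1 + w s) - w s) / s ^ 2) (𝓝[>] 0) (𝓝 0) := by
    have h6 : (fun s : ℝ => Real.log (1 + w s) - w s) =o[𝓝[>] 0] w := by
      have := hO.comp_tendsto tw0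
      exact this
    have h7 : w =O[𝓝[>] 0] fun s : ℝ => s ^ 2 := by
      refine Asymptotics.isBigO_of_div_tendsto_nhds ?_ _ tw
      filter_upwards [self_mem_nhdsWithin] with s hs0 h0
      have : s ≠ 0 := ne_of_gt hs0
      exact absurd h0 (pow_ne_zero 2 this)
    exact (h6.trans_isBigO h7).tendsto_div_nhds_zero
  have h11 := (h5.add tw).div_const 2
  have e5 : (0 + (-(2 * ‖u‖ ^ 2 * ⟪δ, ε⟫) + 4 * (⟪u, δ⟫ * ⟪u, ε⟫)) / (‖u‖ ^ 2 * ‖u‖ ^ 2)) / 2 =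
      mixc u δ ε := by
    unfold mixc
    field_simp
    ring
  rw [e5] at h11
  refine h11.congr' ?_
  filter_upwards [hlog] with s hs1
  rw [hs1]
  ring

variable {m : ℕ}

/-- the determinant of a bilinear form on `ℝ^m` -/
def dtT (T : Eu m → Eu m → ℝ) : ℝ :=
  (Matrix.of fun i j => T (EuclideanSpace.single i 1) (EuclideanSpace.single j 1)).det

/-- the reflection -/
def refl (u : Eu m) : Eu m →ₗ[ℝ] Eu m where
  toFun w := w - (2 * ⟪u, w⟫ / ‖u‖ ^ 2) • u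
  map_add' a b := by
    rw [inner_add_right]
    have : (2 * (⟪u, a⟫ + ⟪u, b⟫) / ‖u‖ ^ 2) = 2 * ⟪u, a⟫ / ‖u‖ ^ 2 + 2 * ⟪u, b⟫ / ‖u‖ ^ 2 := by ring
    rw [this, add_smul]
    abel
  map_smul' c a := by
    rw [inner_smul_right, RingHom.id_apply, smul_sub, smul_smul]
    congr 2
    ring

theorem refl_refl {u : Eu m} (hu : u ≠ 0) : refl u ∘ₗ refl u = LinearMap.id := by
  ext1 w
  have hn : 0 < ‖u‖ := norm_pos_iff.2 hu
  change (w - (2 * ⟪u, w⟫ / ‖u‖ ^ 2) • u) -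
    (2 * ⟪u, w - (2 * ⟪u, w⟫ / ‖u‖ ^ 2) • u⟫ / ‖u‖ ^ 2) • u = w
  rw [inner_sub_right, inner_smul_right, real_inner_self_eq_norm_sq]
  have e : 2 * (⟪u, w⟫ - 2 * ⟪u, w⟫ / ‖u‖ ^ 2 * ‖u‖ ^ 2) / ‖u‖ ^ 2 = -(2 * ⟪u, w⟫ / ‖u‖ ^ 2) := by
    field_simp
    ring
  rw [e, neg_smul]
  abel

theorem abs_det_refl {u : Eu m} (hu : u ≠ 0) : |LinearMap.det (refl u)| = 1 := by
  have h1 := congrArg LinearMap.det (refl_refl hu)
  rw [LinearMap.det_comp, LinearMap.det_id] at h1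
  have h2 : |LinearMap.det (refl u)| * |LinearMap.det (refl u)| = 1 := by
    rw [← abs_mul, h1, abs_one]
  have h3 : 0 ≤ |LinearMap.det (refl u)| := abs_nonneg _
  nlinarith

theorem mixc_refl {u : Eu m} (hu : u ≠ 0) (δ ε : Eu m) :
    mixc u δ ε = -(⟪δ, refl u ε⟫ / ‖u‖ ^ 2) := by
  have hn : 0 < ‖u‖ := norm_pos_iff.2 hu
  change _ = -(⟪δ, ε - (2 * ⟪u, ε⟫ / ‖u‖ ^ 2) • u⟫ / ‖u‖ ^ 2)
  unfold mixc
  rw [inner_sub_right, inner_smul_right, real_inner_comm u δ]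
  field_simp
  ring

/-- the determinant of the matrix of the inner products of the images of the basis vectors -/
theorem det_inner (P Q : Eu m →ₗ[ℝ] Eu m) :
    (Matrix.of fun i j => ⟪P (EuclideanSpace.single j 1), Q (EuclideanSpace.single i 1)⟫).det =
      LinearMap.det P * LinearMap.det Q := by
  classical
  set bs := (EuclideanSpace.basisFun (Fin m) ℝ).toBasis with hbs
  have hb : ∀ i, bs i = EuclideanSpace.single i (1 : ℝ) := by
    intro i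
    rw [hbs]
    simp
  have hM : ∀ (P : Eu m →ₗ[ℝ] Eu m) i j,
      LinearMap.toMatrix bs bs P i j = (P (EuclideanSpace.single j 1)) i := by
    intro P i j
    rw [LinearMap.toMatrix_apply, hb, hbs]
    simp
  have e : (Matrix.of fun i j => ⟪P (EuclideanSpace.single j 1), Q (EuclideanSpace.single i 1)⟫) =
      (LinearMap.toMatrix bs bs Q).transpose * (LinearMap.toMatrix bs bs P) := by
    ext i j
    rw [Matrix.mul_apply, Matrix.of_apply, PiLp.inner_apply]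
    refine Finset.sum_congr rfl fun k _ => ?_
    rw [Matrix.transpose_apply, hM, hM]
    simp [mul_comm]
  rw [e, Matrix.det_mul, Matrix.det_transpose, LinearMap.det_toMatrix, LinearMap.det_toMatrix,
    mul_comm]

variable {h : ℝ} {D : Eu m → Eu m → ℝ} {D0 A : Eu m → ℝ} {A0 : ℝ}

/-- **the calibration**: the constant of the cross ratio from the mixed second difference of the
distance at one geodesic -/
theorem calib [NeZero m] (h0 : 0 < h) (hA0 : 0 < A0) (hA : ∀ ξ, 0 < A ξ)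
    (hb : ∀ ξ z, ξ ≠ z → A ξ / ‖z - ξ‖ ^ (2 * m) = Real.exp (h * (D0 z - D ξ z)) * A0)
    {ξ₁ η₁ : Eu m} (hne : ξ₁ ≠ η₁) {a b : Eu m → Eu m} {La Lb : Eu m →L[ℝ] Eu m}
    (ha : HasFDerivAt a La 0) (hb' : HasFDerivAt b Lb 0) (ha0 : a 0 = ξ₁) (hb0 : b 0 = η₁)
    {T : Eu m → Eu m → ℝ} (hT : 0 < dtT T)
    (hlim : ∀ X Y : Eu m, Tendsto (fun s : ℝ => (D (a (s • Y)) (b (s • X)) + D ξ₁ η₁ -
      D ξ₁ (b (s • X)) - D (a (s • Y)) η₁) / s ^ 2) (𝓝[>] 0) (𝓝 (-T X Y)))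
    {e₁ e₂ : ℝ} (he : e₁ * e₂ = dtT T) (h1 : A ξ₁ / ‖η₁ - ξ₁‖ ^ (2 * m) * |Lb.det| = e₁)
    (h2 : A η₁ / ‖η₁ - ξ₁‖ ^ (2 * m) * |La.det| = e₂) :
    A ξ₁ * A η₁ / ‖η₁ - ξ₁‖ ^ (2 * m) = (2 * m / h) ^ m := by
  have hm0 : (0 : ℝ) < m := by exact_mod_cast Nat.pos_of_ne_zero (NeZero.ne m)
  set u := ξ₁ - η₁ with hu
  have hu0 : u ≠ 0 := sub_ne_zero.2 hne
  have hnu : 0 < ‖u‖ := norm_pos_iff.2 hu0
  have hnn : ‖η₁ - ξ₁‖ = ‖u‖ := by rw [hu, norm_sub_rev]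
  rw [hnn] at h1 h2 ⊢
  -- the mixed second difference
  have key : ∀ X Y : Eu m, T X Y = 2 * m / (h * ‖u‖ ^ 2) * ⟪La Y, refl u (Lb X)⟫ := by
    intro X Y
    have sa : HasDerivAt (fun s : ℝ => a (s • Y)) (La Y) 0 := by
      have e : HasFDerivAt a La ((0 : ℝ) • Y) := by rwa [zero_smul]
      have := e.comp_hasDerivAt (0 : ℝ) ((hasDerivAt_id (0 : ℝ)).smul_const Y)
      rw [one_smul] at this
      exact this
    have sb : HasDerivAt (fun s : ℝ => b (s • X)) (Lb X) 0 := by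
      have e : HasFDerivAt b Lb ((0 : ℝ) • X) := by rwa [zero_smul]
      have := e.comp_hasDerivAt (0 : ℝ) ((hasDerivAt_id (0 : ℝ)).smul_const X)
      rw [one_smul] at this
      exact this
    have l1 := log_diff hne sa sb (by simp [ha0]) (by simp [hb0])
    have l2 := (hlim X Y).const_mul h
    have ta : Tendsto (fun s : ℝ => a (s • Y)) (𝓝[>] 0) (𝓝 ξ₁) := by
      have := sa.continuousAt.tendsto.mono_left (nhdsWithin_le_nhds (s := Ioi 0))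
      simpa [ha0] using this
    have tb : Tendsto (fun s : ℝ => b (s • X)) (𝓝[>] 0) (𝓝 η₁) := by
      have := sb.continuousAt.tendsto.mono_left (nhdsWithin_le_nhds (s := Ioi 0))
      simpa [hb0] using this
    have e1 : ∀ᶠ s in 𝓝[>] (0 : ℝ), a (s • Y) ≠ η₁ := ta.eventually_ne hne
    have e2 : ∀ᶠ s in 𝓝[>] (0 : ℝ), ξ₁ ≠ b (s • X) := by
      filter_upwards [tb.eventually_ne hne.symm] with s hs
      exact hs.symm
    have e3 : ∀ᶠ s in 𝓝[>] (0 : ℝ), a (s • Y) ≠ b (s • X) := by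
      have := (ta.sub tb).eventually_ne hu0
      filter_upwards [this] with s hs
      exact fun h => hs (sub_eq_zero.2 h)
    have l3 := l1.const_mul (2 * (m : ℝ))
    have l4 : Tendsto (fun s : ℝ => 2 * m * ((Real.log ‖a (s • Y) - b (s • X)‖ +
        Real.log ‖ξ₁ - η₁‖ - Real.log ‖ξ₁ - b (s • X)‖ - Real.log ‖a (s • Y) - η₁‖) / s ^ 2))
        (𝓝[>] 0) (𝓝 (h * -T X Y)) := by
      refine l2.congr' ?_
      filter_upwards [e1, e2, e3] with s h1 h2 h3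
      have q1 := hD_eq hA0 hA hb h3
      have q2 := hD_eq hA0 hA hb hne
      have q3 := hD_eq hA0 hA hb h2
      have q4 := hD_eq hA0 hA hb h1
      rw [norm_sub_rev] at q1 q2 q3 q4
      rw [← mul_div_assoc, ← mul_div_assoc]
      congr 1
      linarith
    have l5 := tendsto_nhds_unique l3 l4
    rw [← hu, mixc_refl hu0] at l5
    have l6 : h * T X Y = 2 * m * (⟪La Y, refl u (Lb X)⟫ / ‖u‖ ^ 2) := by linarith
    have l7 : T X Y = (h * T X Y) / h := by field_simp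
    rw [l7, l6]
    field_simp
  -- determinants
  set k : ℝ := 2 * m / (h * ‖u‖ ^ 2) with hk
  have hkp : 0 < k := by positivity
  have hdet : dtT T = k ^ m * (La.det * (LinearMap.det (refl u) * Lb.det)) := by
    have e1 : (Matrix.of fun i j => T (EuclideanSpace.single i 1) (EuclideanSpace.single j 1)) =
        k • (Matrix.of fun i j : Fin m => ⟪(La : Eu m →ₗ[ℝ] Eu m) (EuclideanSpace.single j 1),
          (refl u ∘ₗ (Lb : Eu m →ₗ[ℝ] Eu m)) (EuclideanSpace.single i 1)⟫) := by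
      ext i j
      rw [Matrix.smul_apply, Matrix.of_apply, Matrix.of_apply, key, smul_eq_mul]
      rfl
    unfold dtT
    rw [e1, Matrix.det_smul, Fintype.card_fin, det_inner, LinearMap.det_comp]
  have habs : dtT T = k ^ m * (|La.det| * |Lb.det|) := by
    rw [← abs_of_pos hT, hdet, abs_mul, abs_mul, abs_mul, abs_det_refl hu0, one_mul,
      abs_of_pos (pow_pos hkp m)]
  set q := |La.det| * |Lb.det| with hq
  have hq0 : 0 < q := by
    rw [habs] at hT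
    by_contra hcon
    push Not at hcon
    have : k ^ m * q ≤ 0 := mul_nonpos_of_nonneg_of_nonpos (by positivity) hcon
    linarith
  have hdtA : e₁ * e₂ = A ξ₁ * A η₁ / ‖u‖ ^ (2 * m) / ‖u‖ ^ (2 * m) * q := by
    rw [← h1, ← h2, hq]
    field_simp
  have hfin : A ξ₁ * A η₁ / ‖u‖ ^ (2 * m) / ‖u‖ ^ (2 * m) = k ^ m := by
    have : A ξ₁ * A η₁ / ‖u‖ ^ (2 * m) / ‖u‖ ^ (2 * m) * q = k ^ m * q := by
      rw [← hdtA, he, habs]
    exact mul_right_cancel₀ hq0.ne' this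
  rw [div_eq_iff (by positivity)] at hfin
  rw [hfin, hk, pow_mul, ← mul_pow]
  congr 1
  field_simp

/-- **the bound of the visual measure**, with the constant from the calibration -/
theorem visual_bound [NeZero m] (h0 : 0 < h) (hA0 : 0 < A0) (hA : ∀ ξ, 0 < A ξ)
    (hmeas : Measurable D0)
    (hsym : ∀ ξ z, ξ ≠ z → D ξ z = D z ξ) (hneg : ∀ ξ z, ξ ≠ z → D ξ z ≤ 0)
    (hb : ∀ ξ z, ξ ≠ z → A ξ / ‖z - ξ‖ ^ (2 * m) = Real.exp (h * (D0 z - D ξ z)) * A0)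
    {ξ₁ η₁ : Eu m} (hne : ξ₁ ≠ η₁) (hD : D ξ₁ η₁ = 0) {a b : Eu m → Eu m}
    {La Lb : Eu m →L[ℝ] Eu m}
    (ha : HasFDerivAt a La 0) (hb' : HasFDerivAt b Lb 0) (ha0 : a 0 = ξ₁) (hb0 : b 0 = η₁)
    {T : Eu m → Eu m → ℝ} (hT : 0 < dtT T)
    (hlim : ∀ X Y : Eu m, Tendsto (fun s : ℝ => (D (a (s • Y)) (b (s • X)) + D ξ₁ η₁ -
      D ξ₁ (b (s • X)) - D (a (s • Y)) η₁) / s ^ 2) (𝓝[>] 0) (𝓝 (-T X Y)))
    {e₁ e₂ : ℝ} (he : e₁ * e₂ = dtT T) (h1 : A ξ₁ / ‖η₁ - ξ₁‖ ^ (2 * m) * |Lb.det| = e₁)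
    (h2 : A η₁ / ‖η₁ - ξ₁‖ ^ (2 * m) * |La.det| = e₂) :
    ∫⁻ z : Eu m, ENNReal.ofReal (Real.exp (h * D0 z) * A0) ≤
      ENNReal.ofReal (Real.sqrt ((2 * m / h) ^ m) * sph m) := by
  have hm0 : (0 : ℝ) < m := by exact_mod_cast Nat.pos_of_ne_zero (NeZero.ne m)
  refine cross_bound hA0 hA hmeas hsym h0 hneg hb (Real.sqrt_pos.2 (by positivity)) hne hD ?_
  rw [Real.sq_sqrt (by positivity)]
  exact calib h0 hA0 hA hb hne ha hb' ha0 hb0 hT hlim he h1 h2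

end Cal

end Vale.Agent.P207.H9.CrossM
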