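import Vale.Agent.P242.H607.PL
import Vale.Agent.P271.F507.PL

/-!
# P207, dimension `m + 1`: the inequality of Santaló type for horoballs with pairwise intersections

The theorem `sant`: if φ x * χ y * ‖x - y‖² ≤ 1 in `ℝ^m`, then ∫ φ^m ∫ χ^m ≤ (|S^m| / 2^m)².
-/

open MeasureTheory Set Filter
open scoped ENNReal NNReal

noncomputable section

namespace Vale.Agent.P207.H9.SantM

/-- the space -/
abbrev Eu (m : ℕ) := EuclideanSpace ℝ (Fin m)

/-- the volume of the unit ball -/
def kap (m : ℕ) : ℝ := Real.sqrt Real.pi ^ m / Real.Gamma ((m : ℝ) / 2 + 1)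

/-- the area of the unit sphere of `ℝ^(m+1)` over `2^m` -/
def sph (m : ℕ) : ℝ := ((volume : Measure (Eu (m + 1))).toSphere).real univ / 2 ^ m

theorem kap_pos (m : ℕ) : 0 < kap m := by
  unfold kap
  have h1 : 0 < Real.Gamma ((m : ℝ) / 2 + 1) := Real.Gamma_pos_of_pos (by positivity)
  have h2 : 0 < Real.sqrt Real.pi := Real.sqrt_pos.2 Real.pi_pos
  positivity

variable {m : ℕ}

theorem vol_closedBall [NeZero m] (r : ℝ) (hr : 0 ≤ r) :
    volume (Metric.closedBall (0 : Eu m) r) = ENNReal.ofReal (kap m * r ^ m) := by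
  have : Nonempty (Fin m) := ⟨⟨0, Nat.pos_of_ne_zero (NeZero.ne m)⟩⟩
  rw [EuclideanSpace.volume_closedBall, Fintype.card_fin, ← ENNReal.ofReal_pow hr,
    ← ENNReal.ofReal_mul (by positivity), mul_comm]
  rfl

theorem vol_ball [NeZero m] (r : ℝ) (hr : 0 ≤ r) :
    volume (Metric.ball (0 : Eu m) r) = ENNReal.ofReal (kap m * r ^ m) := by
  have : Nonempty (Fin m) := ⟨⟨0, Nat.pos_of_ne_zero (NeZero.ne m)⟩⟩
  rw [EuclideanSpace.volume_ball, Fintype.card_fin, ← ENNReal.ofReal_pow hr,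
    ← ENNReal.ofReal_mul (by positivity), mul_comm]
  rfl

theorem sph_eq (m : ℕ) : sph m = (m + 1) * kap (m + 1) / 2 ^ m := by
  unfold sph
  rw [Measure.toSphere_real_apply_univ]
  have h1 : (volume : Measure (Eu (m + 1))).real (Metric.ball 0 1) = kap (m + 1) := by
    rw [Measure.real, vol_ball 1 zero_le_one, one_pow, mul_one,
      ENNReal.toReal_ofReal (kap_pos _).le]
  rw [h1]
  simp

theorem sph_eq_vol (m : ℕ) :
    sph m = (m + 1) * (volume (Metric.ball (0 : Eu (m + 1)) 1)).toReal / 2 ^ m := by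
  rw [sph_eq, vol_ball 1 zero_le_one, one_pow, mul_one, ENNReal.toReal_ofReal (kap_pos _).le]

theorem sph_pos (m : ℕ) : 0 < sph m := by
  rw [sph_eq]
  have := kap_pos (m + 1)
  positivity

/-- the constant through the Beta function -/
theorem sph_beta (hm : 0 < m) :
    sph m = m * kap m * (1 / 2 * ProbabilityTheory.beta ((m : ℝ) / 2) ((m : ℝ) / 2)) := by
  have hm' : (0 : ℝ) < m := by exact_mod_cast hm
  have hs : (0 : ℝ) < (m : ℝ) / 2 := by positivity
  have d := Real.Gamma_mul_Gamma_add_half ((m : ℝ) / 2)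
  have g1 : Real.Gamma ((m : ℝ) / 2 + 1) = (m : ℝ) / 2 * Real.Gamma ((m : ℝ) / 2) :=
    Real.Gamma_add_one hs.ne'
  have g2 : Real.Gamma (((m + 1 : ℕ) : ℝ) / 2 + 1) =
      ((m : ℝ) / 2 + 1 / 2) * Real.Gamma ((m : ℝ) / 2 + 1 / 2) := by
    have : ((m + 1 : ℕ) : ℝ) / 2 + 1 = ((m : ℝ) / 2 + 1 / 2) + 1 := by push_cast; ring
    rw [this, Real.Gamma_add_one (by positivity)]
  have p1 : 0 < Real.Gamma ((m : ℝ) / 2) := Real.Gamma_pos_of_pos hs
  have p2 : 0 < Real.Gamma ((m : ℝ) / 2 + 1 / 2) := Real.Gamma_pos_of_pos (by positivity)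
  have p3 : 0 < Real.Gamma (m : ℝ) := Real.Gamma_pos_of_pos hm'
  have e2 : 2 * ((m : ℝ) / 2) = m := by ring
  rw [e2] at d
  have e3 : (2 : ℝ) ^ (1 - (m : ℝ)) = 2 / 2 ^ m := by
    rw [Real.rpow_sub (by norm_num), Real.rpow_one, Real.rpow_natCast]
  rw [e3] at d
  rw [sph_eq, kap, kap, ProbabilityTheory.beta, g1, g2, pow_succ]
  have e4 : (m : ℝ) / 2 + (m : ℝ) / 2 = m := by ring
  rw [e4]
  have hsp : 0 < Real.sqrt Real.pi := Real.sqrt_pos.2 Real.pi_pos
  have d' : Real.sqrt Real.pi = Real.Gamma ((m : ℝ) / 2) * Real.Gamma ((m : ℝ) / 2 + 1 / 2) *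
      2 ^ m / (2 * Real.Gamma m) := by
    rw [d]
    field_simp
  set q := Real.sqrt Real.pi ^ m with hq
  rw [d']
  field_simp

/-- the Brunn-Minkowski inequality for two sets whose difference lies in a ball -/
theorem level [NeZero m] {A B : Set (Eu m)} (hA : MeasurableSet A) (hB : MeasurableSet B) {R : ℝ}
    (h : ∀ x ∈ A, ∀ y ∈ B, ‖x - y‖ ≤ R) {a b : ℝ} (ha : 0 < a) (hb : 0 < b)
    (ha' : ENNReal.ofReal (kap m * a ^ m) ≤ volume A)
    (hb' : ENNReal.ofReal (kap m * b ^ m) ≤ volume B) : a + b ≤ R := by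
  have hk := kap_pos m
  have hm : m ≠ 0 := NeZero.ne m
  have hab : 0 < a + b := add_pos ha hb
  have hne : ∀ {S : Set (Eu m)} {c : ℝ}, 0 < c → ENNReal.ofReal (kap m * c ^ m) ≤ volume S →
      S.Nonempty := by
    intro S c hc hS
    by_contra hcon
    rw [Set.not_nonempty_iff_eq_empty] at hcon
    rw [hcon, measure_empty, nonpos_iff_eq_zero, ENNReal.ofReal_eq_zero] at hS
    have : 0 < kap m * c ^ m := by positivity
    linarith
  have hR : 0 ≤ R := by
    obtain ⟨x, hx⟩ := hne ha ha'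
    obtain ⟨y, hy⟩ := hne hb hb'
    exact (norm_nonneg _).trans (h x hx y hy)
  have hscale : ∀ {S : Set (Eu m)} {c c' : ℝ}, c ≠ 0 → |c| = c' →
      ENNReal.ofReal (kap m * c' ^ m) ≤ volume S →
      ENNReal.ofReal (kap m) ≤ volume ((fun x : Eu m => c • x) ⁻¹' S) := by
    intro S c c' hc hc' hS
    rw [Measure.addHaar_preimage_smul _ hc]
    have hf : Module.finrank ℝ (Eu m) = m := by simp
    have hc0 : 0 < c' := hc' ▸ abs_pos.2 hc
    rw [hf]
    have h1 : |(c ^ m)⁻¹| = (c' ^ m)⁻¹ := by rw [abs_inv, abs_pow, hc']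
    rw [h1]
    refine le_trans (le_of_eq ?_) (mul_le_mul_right hS _)
    rw [← ENNReal.ofReal_mul (by positivity)]
    congr 1
    field_simp
  set A' : Set (Eu m) := (fun x : Eu m => a • x) ⁻¹' A with hA'
  set B' : Set (Eu m) := (fun x : Eu m => (-b) • x) ⁻¹' B with hB'
  set C' : Set (Eu m) := Metric.closedBall 0 (R / (a + b)) with hC'
  have mA' : MeasurableSet A' := measurable_const_smul a hA
  have mB' : MeasurableSet B' := measurable_const_smul (-b) hB
  have mC' : MeasurableSet C' := Metric.isClosed_closedBall.measurableSet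
  have vA : ENNReal.ofReal (kap m) ≤ volume A' := hscale ha.ne' (abs_of_pos ha) ha'
  have vB : ENNReal.ofReal (kap m) ≤ volume B' :=
    hscale (neg_ne_zero.2 hb.ne') (by rw [abs_neg, abs_of_pos hb]) hb'
  have hvp := PiLp.volume_preserving_toLp (Fin m)
  have tr : ∀ {S : Set (Eu m)}, MeasurableSet S →
      volume ((WithLp.toLp 2 : (Fin m → ℝ) → Eu m) ⁻¹' S) = volume S :=
    fun hS => hvp.measure_preimage hS.nullMeasurableSet
  have key := Vale.Agent.P271.F507.bm_mul (s := a / (a + b)) (t := b / (a + b))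
    (div_pos ha hab) (div_pos hb hab) (by field_simp)
    (A := (WithLp.toLp 2 : (Fin m → ℝ) → Eu m) ⁻¹' A')
    (B := (WithLp.toLp 2 : (Fin m → ℝ) → Eu m) ⁻¹' B')
    (C := (WithLp.toLp 2 : (Fin m → ℝ) → Eu m) ⁻¹' C')
    (hvp.measurable mA') (hvp.measurable mB') (hvp.measurable mC') (by
      intro x hx y hy
      rw [mem_preimage] at hx hy ⊢
      rw [hC', mem_closedBall_zero_iff]
      have e1 : (WithLp.toLp 2 ((a / (a + b)) • x + (b / (a + b)) • y) : Eu m) =
          (a + b)⁻¹ • (a • (WithLp.toLp 2 x : Eu m) - (-b) • (WithLp.toLp 2 y : Eu m)) := by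
        ext i
        simp only [PiLp.smul_apply, PiLp.sub_apply, Pi.add_apply, Pi.smul_apply, smul_eq_mul]
        field_simp
        ring
      rw [e1, norm_smul, norm_inv, Real.norm_of_nonneg hab.le, div_eq_inv_mul]
      exact mul_le_mul_of_nonneg_left (h _ hx _ hy) (inv_nonneg.2 hab.le))
  rw [tr mA', tr mB', tr mC', hC', vol_closedBall _ (by positivity)] at key
  have h2 : ENNReal.ofReal (kap m) ≤ ENNReal.ofReal (kap m * (R / (a + b)) ^ m) := by
    refine le_trans (le_of_eq ?_) (le_trans (mul_le_mul'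
      (ENNReal.rpow_le_rpow vA (div_pos ha hab).le) (ENNReal.rpow_le_rpow vB (div_pos hb hab).le))
      key)
    rw [← ENNReal.rpow_add_of_nonneg _ _ (div_pos ha hab).le (div_pos hb hab).le]
    have : a / (a + b) + b / (a + b) = 1 := by field_simp
    rw [this, ENNReal.rpow_one]
  rw [ENNReal.ofReal_le_ofReal_iff (by positivity)] at h2
  have h5 : 0 ≤ R / (a + b) := by positivity
  have h3 : 1 ≤ (R / (a + b)) ^ m := by
    by_contra hcon
    push Not at hcon
    nlinarith
  have h4 : 1 ≤ R / (a + b) := by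
    by_contra hcon
    push Not at hcon
    exact absurd h3 (not_le.2 (pow_lt_one₀ h5 hcon hm))
  rwa [le_div_iff₀ hab, one_mul] at h4

/-- the values whose superlevel set is larger than the ball of radius `e^u` -/
def lv (φ : Eu m → ℝ) (u : ℝ) : Set ℝ :=
  {s | 0 < s ∧ ENNReal.ofReal (kap m * Real.exp u ^ m) < volume {x | s < φ x}}

/-- the decreasing rearrangement in the logarithmic radius -/
def star (φ : Eu m → ℝ) (u : ℝ) : ℝ := sSup (lv φ u)

variable {φ χ : Eu m → ℝ}

theorem bdd_lv {Mb : ℝ} (hb : ∀ x, φ x ≤ Mb) (u : ℝ) : BddAbove (lv φ u) := by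
  refine ⟨Mb, fun s hs => ?_⟩
  by_contra hcon
  push Not at hcon
  have h1 : {x | s < φ x} = ∅ := by
    ext x
    simp only [mem_ofPred_eq, mem_empty_iff_false, iff_false, not_lt]
    exact (hb x).trans hcon.le
  have h2 := hs.2
  rw [h1, measure_empty] at h2
  exact absurd h2 (not_lt.2 zero_le)

theorem star_nonneg (u : ℝ) : 0 ≤ star φ u := Real.sSup_nonneg fun _ hs => hs.1.le

theorem lt_star_iff {Mb : ℝ} (hb : ∀ x, φ x ≤ Mb) {s : ℝ} (hs : 0 ≤ s) (u : ℝ) :
    s < star φ u ↔ ENNReal.ofReal (kap m * Real.exp u ^ m) < volume {x | s < φ x} := by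
  constructor
  · intro h
    have hne : (lv φ u).Nonempty := by
      by_contra hcon
      rw [Set.not_nonempty_iff_eq_empty] at hcon
      rw [star, hcon, Real.sSup_empty] at h
      linarith
    obtain ⟨s', hs', hlt⟩ := exists_lt_of_lt_csSup hne h
    exact hs'.2.trans_le (measure_mono fun x hx => hlt.trans hx)
  · intro h
    have h1 : {x | s < φ x} = ⋃ n : ℕ, {x | s + 1 / ((n : ℝ) + 1) < φ x} := by
      ext x
      simp only [mem_ofPred_eq, mem_iUnion]
      constructor
      · intro hx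
        obtain ⟨n, hn⟩ := exists_nat_one_div_lt (sub_pos.2 hx)
        exact ⟨n, by linarith⟩
      · rintro ⟨n, hn⟩
        have : (0 : ℝ) < 1 / ((n : ℝ) + 1) := by positivity
        linarith
    have hmono : Monotone fun n : ℕ => {x | s + 1 / ((n : ℝ) + 1) < φ x} := by
      intro i j hij x hx
      have : 1 / ((j : ℝ) + 1) ≤ 1 / ((i : ℝ) + 1) :=
        one_div_le_one_div_of_le (by positivity) (by
          have : (i : ℝ) ≤ j := by exact_mod_cast hij
          linarith)
      have hx' : s + 1 / ((i : ℝ) + 1) < φ x := hx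
      exact lt_of_le_of_lt (by linarith) hx'
    rw [h1, hmono.measure_iUnion] at h
    obtain ⟨n, hn⟩ := lt_iSup_iff.1 h
    have hpos : (0 : ℝ) < 1 / ((n : ℝ) + 1) := by positivity
    have hmem : s + 1 / ((n : ℝ) + 1) ∈ lv φ u := ⟨by linarith, hn⟩
    have := le_csSup (bdd_lv hb u) hmem
    exact lt_of_lt_of_le (by linarith) this

theorem star_antitone {Mb : ℝ} (hb : ∀ x, φ x ≤ Mb) : Antitone (star φ) := by
  intro u v huv
  by_contra hcon
  push Not at hcon
  have h1 := (lt_star_iff hb (star_nonneg u) v).1 hcon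
  have h2 : ENNReal.ofReal (kap m * Real.exp u ^ m) < volume {x | star φ u < φ x} := by
    refine lt_of_le_of_lt (ENNReal.ofReal_le_ofReal ?_) h1
    have := Real.exp_le_exp.2 huv
    have := Real.exp_pos u
    have := (kap_pos m).le
    gcongr
  exact lt_irrefl _ ((lt_star_iff hb (star_nonneg u) u).2 h2)

theorem star_measurable {Mb : ℝ} (hb : ∀ x, φ x ≤ Mb) : Measurable (star φ) :=
  (star_antitone hb).measurable

/-- the density of the area in the logarithmic radius -/
def dens (m : ℕ) (u : ℝ) : ℝ≥0∞ := ENNReal.ofReal (m * kap m * Real.exp u ^ m)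

theorem dens_measurable : Measurable (dens m) :=
  ENNReal.measurable_ofReal.comp ((measurable_const.mul (Real.measurable_exp.pow_const m)))

/-- the area in the logarithmic radius -/
def mu (m : ℕ) : Measure ℝ := volume.withDensity (dens m)

theorem mu_star [NeZero m] {Mb : ℝ} (hb : ∀ x, φ x ≤ Mb) {s : ℝ} (hs : 0 ≤ s) :
    mu m {u | s < star φ u} = volume {x | s < φ x} := by
  have hm : m ≠ 0 := NeZero.ne m
  have hm' : (0 : ℝ) < m := by exact_mod_cast Nat.pos_of_ne_zero hm
  have hk := kap_pos m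
  set V := volume {x | s < φ x} with hV
  have hms : MeasurableSet {u | s < star φ u} :=
    measurableSet_lt measurable_const (star_measurable hb)
  rw [mu, withDensity_apply _ hms]
  set f : ℝ → ℝ := fun u => kap m * Real.exp u ^ m with hf
  have hd : ∀ u ∈ {u | s < star φ u}, HasDerivWithinAt f (m * kap m * Real.exp u ^ m)
      {u | s < star φ u} u := by
    intro u _
    have h1 : HasDerivAt (fun u => kap m * Real.exp u ^ m)
        (kap m * (m * Real.exp u ^ (m - 1) * Real.exp u)) u :=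
      ((Real.hasDerivAt_exp u).pow m).const_mul _
    have h2 : kap m * (m * Real.exp u ^ (m - 1) * Real.exp u) =
        m * kap m * Real.exp u ^ m := by
      rw [mul_assoc (m : ℝ), ← pow_succ, Nat.sub_add_cancel (Nat.pos_of_ne_zero hm)]
      ring
    rw [h2] at h1
    exact h1.hasDerivWithinAt
  have hinj : InjOn f {u | s < star φ u} := by
    intro u _ v _ huv
    have h1 : Real.exp u ^ m = Real.exp v ^ m := mul_left_cancel₀ hk.ne' huv
    have h2 : Real.exp u = Real.exp v :=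
      (pow_left_inj₀ (Real.exp_pos u).le (Real.exp_pos v).le hm).1 h1
    exact Real.exp_injective h2
  have h1 := lintegral_image_eq_lintegral_abs_deriv_mul hms hd hinj 1
  have h2 : ∫⁻ u in {u | s < star φ u}, dens m u =
      ∫⁻ x in {u | s < star φ u}, ENNReal.ofReal |m * kap m * Real.exp x ^ m| *
        (1 : ℝ → ℝ≥0∞) (f x) := by
    refine lintegral_congr fun u => ?_
    rw [abs_of_nonneg (by positivity), Pi.one_apply, mul_one, dens]
  rw [h2, ← h1]
  simp only [Pi.one_apply, lintegral_one, Measure.restrict_apply MeasurableSet.univ, univ_inter]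
  have himg : f '' {u | s < star φ u} = {x | 0 < x ∧ ENNReal.ofReal x < V} := by
    ext x
    constructor
    · rintro ⟨u, hu, rfl⟩
      exact ⟨by positivity, (lt_star_iff hb hs u).1 hu⟩
    · rintro ⟨hx, hxV⟩
      have e1 : f (Real.log (x / kap m) / m) = x := by
        have h3 : Real.exp (Real.log (x / kap m) / m) ^ m = x / kap m := by
          rw [← Real.exp_nat_mul]
          have : (m : ℝ) * (Real.log (x / kap m) / m) = Real.log (x / kap m) := by
            field_simp
          rw [this, Real.exp_log (by positivity)]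
        simp only [hf]
        rw [h3]
        field_simp
      refine ⟨Real.log (x / kap m) / m, ?_, e1⟩
      rw [mem_ofPred_eq, lt_star_iff hb hs]
      change ENNReal.ofReal (f (Real.log (x / kap m) / m)) < V
      rwa [e1]
  rw [himg]
  rcases eq_or_ne V ⊤ with htop | htop
  · have : {x : ℝ | 0 < x ∧ ENNReal.ofReal x < V} = Ioi 0 := by
      ext x
      simp [htop]
    rw [this, Real.volume_Ioi, htop]
  · have : {x : ℝ | 0 < x ∧ ENNReal.ofReal x < V} = Ioo 0 V.toReal := by
      ext x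
      simp only [mem_ofPred_eq, mem_Ioo]
      refine and_congr_right fun hx => ?_
      rw [ENNReal.ofReal_lt_iff_lt_toReal hx.le htop]
    rw [this, Real.volume_Ioo, sub_zero, ENNReal.ofReal_toReal htop]

/-- the integral of the power in the logarithmic radius -/
theorem pow_integral [NeZero m] {Mb : ℝ} (hb : ∀ x, φ x ≤ Mb) (h0 : ∀ x, 0 ≤ φ x)
    (hm : Measurable φ) :
    ∫⁻ x, ENNReal.ofReal (φ x ^ m) =
      ENNReal.ofReal (m * kap m) * ∫⁻ u, ENNReal.ofReal ((star φ u * Real.exp u) ^ m) := by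
  have hm0 : (0 : ℝ) < m := by exact_mod_cast Nat.pos_of_ne_zero (NeZero.ne m)
  have hk := kap_pos m
  have h1 := lintegral_rpow_eq_lintegral_meas_lt_mul (volume : Measure (Eu m)) (f := φ)
    (Eventually.of_forall h0) hm.aemeasurable (p := m) hm0
  have h2 := lintegral_rpow_eq_lintegral_meas_lt_mul (mu m) (f := star φ)
    (Eventually.of_forall star_nonneg) (star_measurable hb).aemeasurable (p := m) hm0
  have h3 : ∫⁻ t in Ioi (0 : ℝ), mu m {a | t < star φ a} * ENNReal.ofReal (t ^ ((m : ℝ) - 1)) =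
      ∫⁻ t in Ioi (0 : ℝ), volume {a | t < φ a} * ENNReal.ofReal (t ^ ((m : ℝ) - 1)) := by
    refine setLIntegral_congr_fun measurableSet_Ioi fun t ht => ?_
    rw [mu_star hb (le_of_lt ht)]
  rw [h3, ← h1] at h2
  simp only [Real.rpow_natCast] at h2
  have m1 : Measurable fun u => ENNReal.ofReal (star φ u ^ m) :=
    ENNReal.measurable_ofReal.comp ((star_measurable hb).pow_const m)
  have m2 : Measurable fun u => ENNReal.ofReal ((star φ u * Real.exp u) ^ m) :=
    ENNReal.measurable_ofReal.comp (((star_measurable hb).mul Real.measurable_exp).pow_const m)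
  rw [← h2, mu, lintegral_withDensity_eq_lintegral_mul _ dens_measurable m1,
    ← lintegral_const_mul _ m2]
  refine lintegral_congr fun u => ?_
  rw [Pi.mul_apply, dens, ← ENNReal.ofReal_mul (by positivity), ← ENNReal.ofReal_mul (by positivity)]
  congr 1
  ring

theorem star_mul [NeZero m] {Mb Mc : ℝ} (hb : ∀ x, φ x ≤ Mb) (hc : ∀ x, χ x ≤ Mc)
    (hmφ : Measurable φ) (hmχ : Measurable χ)
    (h : ∀ x y, φ x * χ y * ‖x - y‖ ^ 2 ≤ 1) (u v : ℝ) :
    star φ u * star χ v * (Real.exp u + Real.exp v) ^ 2 ≤ 1 := by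
  by_contra hcon
  push Not at hcon
  have hE : 0 < Real.exp u + Real.exp v := add_pos (Real.exp_pos _) (Real.exp_pos _)
  have hφ : 0 < star φ u := by
    rcases (star_nonneg (φ := φ) u).lt_or_eq with h1 | h1
    · exact h1
    · rw [← h1] at hcon
      norm_num at hcon
  have hχ : 0 < star χ v := by
    rcases (star_nonneg (φ := χ) v).lt_or_eq with h1 | h1
    · exact h1
    · rw [← h1] at hcon
      norm_num at hcon
  -- choose levels slightly below
  obtain ⟨s, hs0, hs1, t, ht0, ht1, hst⟩ : ∃ s, 0 < s ∧ s < star φ u ∧ ∃ t, 0 < t ∧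
      t < star χ v ∧ 1 < s * t * (Real.exp u + Real.exp v) ^ 2 := by
    have hcont : Continuous fun r : ℝ => (r * star φ u) * (r * star χ v) *
        (Real.exp u + Real.exp v) ^ 2 := by fun_prop
    have hev : ∀ᶠ r in nhds (1 : ℝ), 1 < (r * star φ u) * (r * star χ v) *
        (Real.exp u + Real.exp v) ^ 2 := by
      refine hcont.continuousAt.eventually (lt_mem_nhds ?_)
      simpa using hcon
    have hev2 : ∀ᶠ r in nhds (1 : ℝ), 0 < r := lt_mem_nhds one_pos
    have hev3 := (hev.and hev2).filter_mono (nhdsWithin_le_nhds (s := Iio 1))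
    obtain ⟨r, ⟨h1, h2⟩, h3⟩ := (hev3.and self_mem_nhdsWithin).exists
    have h3' : r < 1 := h3
    exact ⟨r * star φ u, mul_pos h2 hφ, by nlinarith, r * star χ v, mul_pos h2 hχ,
      by nlinarith, h1⟩
  have hA := (lt_star_iff hb hs0.le u).1 hs1
  have hB := (lt_star_iff hc ht0.le v).1 ht1
  have hst0 : 0 < s * t := mul_pos hs0 ht0
  have hle := level (A := {x | s < φ x}) (B := {x | t < χ x})
    (measurableSet_lt measurable_const hmφ) (measurableSet_lt measurable_const hmχ)
    (R := Real.sqrt (s * t)⁻¹) (by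
      intro x hx y hy
      have hx' : s < φ x := hx
      have hy' : t < χ y := hy
      apply Real.le_sqrt_of_sq_le
      have h1 := h x y
      have h2 : s * t * ‖x - y‖ ^ 2 ≤ φ x * χ y * ‖x - y‖ ^ 2 := by
        have : s * t ≤ φ x * χ y :=
          mul_le_mul hx'.le hy'.le ht0.le (hs0.le.trans hx'.le)
        exact mul_le_mul_of_nonneg_right this (sq_nonneg _)
      rw [← one_div, le_div_iff₀ hst0]
      nlinarith) (Real.exp_pos u) (Real.exp_pos v) hA.le hB.le
  have h5 : (Real.exp u + Real.exp v) ^ 2 ≤ (s * t)⁻¹ := by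
    have h6 : (Real.exp u + Real.exp v) ^ 2 ≤ Real.sqrt (s * t)⁻¹ ^ 2 :=
      pow_le_pow_left₀ hE.le hle 2
    rwa [Real.sq_sqrt (inv_nonneg.2 hst0.le)] at h6
  have h7 : s * t * (Real.exp u + Real.exp v) ^ 2 ≤ s * t * (s * t)⁻¹ :=
    mul_le_mul_of_nonneg_left h5 hst0.le
  rw [mul_inv_cancel₀ hst0.ne'] at h7
  linarith

/-- the kernel -/
def ker (m : ℕ) (w : ℝ) : ℝ := (Real.exp w / (1 + Real.exp w ^ 2)) ^ m

theorem ker_nonneg (w : ℝ) : 0 ≤ ker m w := by
  unfold ker
  positivity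

theorem ker_measurable : Measurable (ker m) :=
  (Real.measurable_exp.div (measurable_const.add (Real.measurable_exp.pow_const 2))).pow_const m

/-- the unnormalised Beta integral -/
theorem beta_lintegral {a : ℝ} (ha : 0 < a) :
    ∫⁻ x in Ioo (0 : ℝ) 1, ENNReal.ofReal (x ^ (a - 1) * (1 - x) ^ (a - 1)) =
      ENNReal.ofReal (ProbabilityTheory.beta a a) := by
  have hB := ProbabilityTheory.beta_pos ha ha
  have h1 := ProbabilityTheory.lintegral_betaPDF_eq_one ha ha
  rw [ProbabilityTheory.lintegral_betaPDF] at h1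
  have h2 : ∀ x ∈ Ioo (0 : ℝ) 1, ENNReal.ofReal (x ^ (a - 1) * (1 - x) ^ (a - 1)) =
      ENNReal.ofReal (ProbabilityTheory.beta a a) *
        ENNReal.ofReal (1 / ProbabilityTheory.beta a a * x ^ (a - 1) * (1 - x) ^ (a - 1)) := by
    intro x hx
    rw [← ENNReal.ofReal_mul hB.le]
    congr 1
    field_simp
  rw [setLIntegral_congr_fun measurableSet_Ioo h2, lintegral_const_mul' _ _ ENNReal.ofReal_ne_top,
    h1, mul_one]

theorem ker_integral [NeZero m] :
    ∫⁻ w, ENNReal.ofReal (ker m w) ≤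
      ENNReal.ofReal (1 / 2 * ProbabilityTheory.beta ((m : ℝ) / 2) ((m : ℝ) / 2)) := by
  have hm0 : (0 : ℝ) < m := by exact_mod_cast Nat.pos_of_ne_zero (NeZero.ne m)
  set G : ℝ → ℝ := fun w => Real.exp w ^ 2 / (1 + Real.exp w ^ 2) with hG
  set G' : ℝ → ℝ := fun w => 2 * Real.exp w ^ 2 / (1 + Real.exp w ^ 2) ^ 2 with hG'
  have hd : ∀ w ∈ (univ : Set ℝ), HasDerivWithinAt G (G' w) univ w := by
    intro w _
    have h1 : HasDerivAt (fun w => Real.exp w ^ 2) (2 * Real.exp w ^ (2 - 1) * Real.exp w) w :=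
      (Real.hasDerivAt_exp w).pow 2
    have hne : 1 + Real.exp w ^ 2 ≠ 0 := by positivity
    have h2 := h1.div (h1.const_add 1) hne
    have h3 : (2 * Real.exp w ^ (2 - 1) * Real.exp w * (1 + Real.exp w ^ 2) -
        Real.exp w ^ 2 * (2 * Real.exp w ^ (2 - 1) * Real.exp w)) /
        (1 + Real.exp w ^ 2) ^ 2 = G' w := by
      simp only [hG', Nat.add_one_sub_one, pow_one]
      congr 1
      ring
    rw [h3] at h2
    exact h2.hasDerivWithinAt
  have hinj : InjOn G univ := by
    intro x _ y _ hxy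
    have h1 : Real.exp x ^ 2 / (1 + Real.exp x ^ 2) =
        Real.exp y ^ 2 / (1 + Real.exp y ^ 2) := hxy
    rw [div_eq_div_iff (by positivity) (by positivity)] at h1
    have h2 : Real.exp x ^ 2 = Real.exp y ^ 2 := by nlinarith
    exact Real.exp_injective ((sq_eq_sq₀ (Real.exp_pos _).le (Real.exp_pos _).le).1 h2)
  set q : ℝ → ℝ≥0∞ := fun x =>
    ENNReal.ofReal (1 / 2) * ENNReal.ofReal (x ^ ((m : ℝ) / 2 - 1) * (1 - x) ^ ((m : ℝ) / 2 - 1))
    with hq
  have h1 := lintegral_image_eq_lintegral_abs_deriv_mul MeasurableSet.univ hd hinj q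
  have h2 : ∫⁻ w, ENNReal.ofReal (ker m w) =
      ∫⁻ x in univ, ENNReal.ofReal |G' x| * q (G x) := by
    rw [Measure.restrict_univ]
    refine lintegral_congr fun w => ?_
    have hE : 0 < Real.exp w := Real.exp_pos w
    have hGp : 0 < G w := by simp only [hG]; positivity
    have hG1 : 1 - G w = 1 / (1 + Real.exp w ^ 2) := by
      simp only [hG]; field_simp; ring
    have hG1p : 0 < 1 - G w := by rw [hG1]; positivity
    have hG'p : 0 ≤ G' w := by simp only [hG']; positivity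
    rw [abs_of_nonneg hG'p, hq]
    simp only
    rw [← ENNReal.ofReal_mul (by norm_num), ← ENNReal.ofReal_mul hG'p]
    congr 1
    rw [← Real.mul_rpow hGp.le hG1p.le]
    have e1 : G w * (1 - G w) = (Real.exp w / (1 + Real.exp w ^ 2)) ^ 2 := by
      rw [hG1]; simp only [hG]; field_simp
    have hB : 0 < Real.exp w / (1 + Real.exp w ^ 2) := by positivity
    rw [e1, ← Real.rpow_natCast (Real.exp w / (1 + Real.exp w ^ 2)) 2, ← Real.rpow_mul hB.le]
    have e2 : ((2 : ℕ) : ℝ) * ((m : ℝ) / 2 - 1) = (m : ℝ) - (2 : ℕ) := by push_cast; ring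
    rw [e2, Real.rpow_sub hB, Real.rpow_natCast, Real.rpow_natCast]
    unfold ker
    have e3 : G' w = 2 * (Real.exp w / (1 + Real.exp w ^ 2)) ^ 2 := by
      simp only [hG']; field_simp
    rw [e3]
    set b := Real.exp w / (1 + Real.exp w ^ 2) with hb
    field_simp
  rw [h2, ← h1]
  have hsub : G '' univ ⊆ Ioo 0 1 := by
    rintro _ ⟨w, -, rfl⟩
    simp only [hG, mem_Ioo]
    constructor
    · positivity
    · rw [div_lt_one (by positivity)]
      linarith
  refine (lintegral_mono_set hsub).trans ?_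
  rw [hq, lintegral_const_mul' _ _ ENNReal.ofReal_ne_top, beta_lintegral (by positivity),
    ← ENNReal.ofReal_mul (by norm_num)]

theorem sant_bdd [NeZero m] {Mb Mc : ℝ} (hb : ∀ x, φ x ≤ Mb) (hc : ∀ x, χ x ≤ Mc)
    (hφ : ∀ x, 0 ≤ φ x) (hχ : ∀ x, 0 ≤ χ x) (hmφ : Measurable φ) (hmχ : Measurable χ)
    (h : ∀ x y, φ x * χ y * ‖x - y‖ ^ 2 ≤ 1) :
    (∫⁻ x, ENNReal.ofReal (φ x ^ m)) * (∫⁻ x, ENNReal.ofReal (χ x ^ m)) ≤
      ENNReal.ofReal (sph m ^ 2) := by
  have hm0 : (0 : ℝ) < m := by exact_mod_cast Nat.pos_of_ne_zero (NeZero.ne m)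
  have hk := kap_pos m
  rw [pow_integral hb hφ hmφ, pow_integral hc hχ hmχ]
  have hsym : ∫⁻ u, ENNReal.ofReal ((star χ u * Real.exp u) ^ m) =
      ∫⁻ u, ENNReal.ofReal ((star χ (-u) * Real.exp (-u)) ^ m) :=
    (lintegral_neg_eq_self fun u => ENNReal.ofReal ((star χ u * Real.exp u) ^ m)).symm
  have hpl := Vale.Agent.P242.H607.PL.pl_one
    (fun u => ENNReal.ofReal ((star φ u * Real.exp u) ^ m))
    (fun u => ENNReal.ofReal ((star χ (-u) * Real.exp (-u)) ^ m))
    (fun w => ENNReal.ofReal (ker m w))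
    (ENNReal.measurable_ofReal.comp (((star_measurable hb).mul Real.measurable_exp).pow_const m))
    (ENNReal.measurable_ofReal.comp ((((star_measurable hc).comp measurable_neg).mul
      (Real.measurable_exp.comp measurable_neg)).pow_const m))
    (ENNReal.measurable_ofReal.comp ker_measurable)
    (by
      intro x y
      have hs1 := star_nonneg (φ := φ) x
      have hs2 := star_nonneg (φ := χ) (-y)
      rw [← ENNReal.ofReal_mul (by positivity), ← ENNReal.ofReal_pow (ker_nonneg _)]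
      apply ENNReal.ofReal_le_ofReal
      have h1 := star_mul hb hc hmφ hmχ h x (-y)
      have hA : 0 ≤ star φ x * star χ (-y) := mul_nonneg (star_nonneg _) (star_nonneg _)
      -- the kernel
      set k := Real.exp ((x + y) / 2) / (1 + Real.exp ((x + y) / 2) ^ 2) with hkk
      have h2 : k ^ 2 =
          (Real.exp x * Real.exp (-y)) / (Real.exp x + Real.exp (-y)) ^ 2 := by
        rw [hkk]
        have e1 : Real.exp x = Real.exp ((x + y) / 2) * Real.exp ((x - y) / 2) := by
          rw [← Real.exp_add]; congr 1; ring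
        have e2 : Real.exp (-y) = Real.exp ((x - y) / 2) / Real.exp ((x + y) / 2) := by
          rw [← Real.exp_sub]; congr 1; ring
        rw [e1, e2]
        have p1 := Real.exp_pos ((x + y) / 2)
        have p2 := Real.exp_pos ((x - y) / 2)
        field_simp
        ring
      have hE : 0 < Real.exp x + Real.exp (-y) := add_pos (Real.exp_pos _) (Real.exp_pos _)
      have h3 : star φ x * star χ (-y) ≤ 1 / (Real.exp x + Real.exp (-y)) ^ 2 := by
        rw [le_div_iff₀ (by positivity)]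
        exact h1
      have h4 : (star φ x * star χ (-y)) * (Real.exp x * Real.exp (-y)) ≤ k ^ 2 := by
        rw [h2, div_eq_mul_one_div, mul_comm (Real.exp x * Real.exp (-y))]
        exact mul_le_mul_of_nonneg_right h3 (by positivity)
      have h5 : 0 ≤ (star φ x * star χ (-y)) * (Real.exp x * Real.exp (-y)) :=
        mul_nonneg hA (by positivity)
      calc (star φ x * Real.exp x) ^ m * (star χ (-y) * Real.exp (-y)) ^ m
          = ((star φ x * star χ (-y)) * (Real.exp x * Real.exp (-y))) ^ m := by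
            rw [← mul_pow]; congr 1; ring
        _ ≤ (k ^ 2) ^ m := pow_le_pow_left₀ h5 h4 m
        _ = ker m ((x + y) / 2) ^ 2 := by
            rw [ker, ← hkk, ← pow_mul, ← pow_mul, mul_comm])
  calc ENNReal.ofReal (m * kap m) * (∫⁻ u, ENNReal.ofReal ((star φ u * Real.exp u) ^ m)) *
      (ENNReal.ofReal (m * kap m) * ∫⁻ u, ENNReal.ofReal ((star χ u * Real.exp u) ^ m))
      = ENNReal.ofReal (m * kap m) ^ 2 * ((∫⁻ u, ENNReal.ofReal ((star φ u * Real.exp u) ^ m)) *
        ∫⁻ u, ENNReal.ofReal ((star χ (-u) * Real.exp (-u)) ^ m)) := by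
        rw [hsym]; ring
    _ ≤ ENNReal.ofReal (m * kap m) ^ 2 * (∫⁻ w, ENNReal.ofReal (ker m w)) ^ 2 :=
        mul_le_mul_right hpl _
    _ ≤ ENNReal.ofReal (m * kap m) ^ 2 *
        ENNReal.ofReal (1 / 2 * ProbabilityTheory.beta ((m : ℝ) / 2) ((m : ℝ) / 2)) ^ 2 :=
        mul_le_mul_right (pow_le_pow_left₀ zero_le ker_integral 2) _
    _ = ENNReal.ofReal (sph m ^ 2) := by
        rw [← mul_pow, ← ENNReal.ofReal_mul (by positivity),
          ← ENNReal.ofReal_pow (by
            have := ProbabilityTheory.beta_pos (α := (m : ℝ) / 2) (β := (m : ℝ) / 2)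
              (by positivity) (by positivity)
            positivity), sph_beta (Nat.pos_of_ne_zero (NeZero.ne m))]

/-- a function which pairs with a nonzero function is bounded -/
theorem bdd_of [NeZero m] (hφ : ∀ x, 0 ≤ φ x) (hχ : ∀ x, 0 ≤ χ x)
    (h : ∀ x y, φ x * χ y * ‖x - y‖ ^ 2 ≤ 1)
    (hne : ∫⁻ x, ENNReal.ofReal (χ x ^ m) ≠ 0) : ∃ Mb, ∀ x, φ x ≤ Mb := by
  have hm : m ≠ 0 := NeZero.ne m
  have : Nonempty (Fin m) := ⟨⟨0, Nat.pos_of_ne_zero hm⟩⟩
  have h1 : ∃ y₀ y₁, y₀ ≠ y₁ ∧ 0 < χ y₀ ∧ 0 < χ y₁ := by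
    by_contra hcon
    push Not at hcon
    apply hne
    have hsub : {y | 0 < χ y}.Subsingleton := by
      intro a ha b hb
      by_contra hab
      exact absurd hb (not_lt.2 (hcon a b hab ha))
    have hnull : volume {y | 0 < χ y} = 0 := hsub.measure_zero volume
    rw [lintegral_eq_zero_iff']
    · filter_upwards [compl_mem_ae_iff.2 hnull] with y hy
      have hy' : ¬ 0 < χ y := hy
      have : χ y = 0 := le_antisymm (not_lt.1 hy') (hχ y)
      rw [this]
      simp [hm]
    · refine ⟨0, measurable_const, ?_⟩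
      filter_upwards [compl_mem_ae_iff.2 hnull] with y hy
      have hy' : ¬ 0 < χ y := hy
      have : χ y = 0 := le_antisymm (not_lt.1 hy') (hχ y)
      rw [this]
      simp [hm]
  obtain ⟨y₀, y₁, hy, h0, h1⟩ := h1
  set δ := ‖y₀ - y₁‖ with hδ
  have hδ0 : 0 < δ := norm_pos_iff.2 (sub_ne_zero.2 hy)
  set mm := min (χ y₀) (χ y₁) with hmm
  have hmm0 : 0 < mm := lt_min h0 h1
  refine ⟨1 / (mm * (δ / 2) ^ 2), fun x => ?_⟩
  rw [le_div_iff₀ (by positivity)]
  have key : ∀ y, mm ≤ χ y → δ / 2 ≤ ‖x - y‖ → φ x * (mm * (δ / 2) ^ 2) ≤ 1 := by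
    intro y hy1 hy2
    refine le_trans ?_ (h x y)
    rw [mul_assoc]
    refine mul_le_mul_of_nonneg_left ?_ (hφ x)
    exact mul_le_mul hy1 (pow_le_pow_left₀ (by positivity) hy2 2) (by positivity) (hχ y)
  rcases le_or_gt (δ / 2) ‖x - y₀‖ with h2 | h2
  · exact key y₀ (min_le_left _ _) h2
  · refine key y₁ (min_le_right _ _) ?_
    have h3 : δ ≤ ‖x - y₀‖ + ‖x - y₁‖ := by
      calc δ = ‖(x - y₁) - (x - y₀)‖ := by rw [hδ]; congr 1; abel
        _ ≤ ‖x - y₁‖ + ‖x - y₀‖ := norm_sub_le _ _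
        _ = _ := add_comm _ _
    linarith

/-- **the inequality of Santaló type in `ℝ^m`** -/
theorem sant [NeZero m] {φ χ : Eu m → ℝ} (hφ : ∀ x, 0 ≤ φ x) (hχ : ∀ x, 0 ≤ χ x)
    (hmφ : Measurable φ) (hmχ : Measurable χ)
    (h : ∀ x y, φ x * χ y * ‖x - y‖ ^ 2 ≤ 1) :
    (∫⁻ x, ENNReal.ofReal (φ x ^ m)) * (∫⁻ x, ENNReal.ofReal (χ x ^ m)) ≤
      ENNReal.ofReal (sph m ^ 2) := by
  by_cases h1 : ∫⁻ x, ENNReal.ofReal (φ x ^ m) = 0
  · rw [h1, zero_mul]; exact zero_le
  by_cases h2 : ∫⁻ x, ENNReal.ofReal (χ x ^ m) = 0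
  · rw [h2, mul_zero]; exact zero_le
  obtain ⟨Mb, hb⟩ := bdd_of hφ hχ h h2
  obtain ⟨Mc, hc⟩ := bdd_of hχ hφ (fun x y => by
    rw [mul_comm (χ x), norm_sub_rev]
    exact h y x) h1
  exact sant_bdd hb hc hφ hχ hmφ hmχ h

/-- the case of one function -/
theorem sant_self [NeZero m] {φ : Eu m → ℝ} (hφ : ∀ x, 0 ≤ φ x) (hmφ : Measurable φ)
    (h : ∀ x y, φ x * φ y * ‖x - y‖ ^ 2 ≤ 1) :
    ∫⁻ x, ENNReal.ofReal (φ x ^ m) ≤ ENNReal.ofReal (sph m) := by
  have h1 := sant hφ hφ hmφ hmφ h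
  rw [← sq, ENNReal.ofReal_pow (sph_pos m).le] at h1
  exact (ENNReal.pow_le_pow_left_iff two_ne_zero).1 h1

end Vale.Agent.P207.H9.SantM
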